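import Vale.Agent.P088.R2.H31.CSpec

/-!
# P088, THEOREM S: Laplace's method for the kernel `(4ρ²z²/D)^m D^{-(k+1)/2}` (module S-LAP)
-/

open MeasureTheory Set Filter Topology Metric
open scoped ContDiff

noncomputable section

namespace Vale.Agent.P088.R2.H605

open Vale.Agent.P088.R2.H31

/-- `1 + t² + |v|²` -/
def ww {k : ℕ} (p : ℝ × EuclideanSpace ℝ (Fin k)) : ℝ := 1 + p.1 ^ 2 + ‖p.2‖ ^ 2

/-- `(1 + t² + |v|²)^{-m-(k+1)/2}` -/
def WW (k m : ℕ) (p : ℝ × EuclideanSpace ℝ (Fin k)) : ℝ :=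
  1 / (ww p ^ m * √(ww p) ^ (k + 1))

variable {k : ℕ}

lemma one_le_ww (p : ℝ × EuclideanSpace ℝ (Fin k)) : 1 ≤ ww p := by
  unfold ww; nlinarith [sq_nonneg p.1, sq_nonneg ‖p.2‖]

lemma ww_pos (p : ℝ × EuclideanSpace ℝ (Fin k)) : 0 < ww p :=
  lt_of_lt_of_le one_pos (one_le_ww p)

lemma continuous_ww : Continuous (ww (k := k)) := by
  unfold ww; fun_prop

lemma WW_pos (m : ℕ) (p : ℝ × EuclideanSpace ℝ (Fin k)) : 0 < WW k m p := by
  have := ww_pos p
  have := Real.sqrt_pos.2 this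
  unfold WW; positivity

lemma continuous_WW (m : ℕ) : Continuous (WW k m) := by
  unfold WW
  refine continuous_const.div ?_ ?_
  · exact (continuous_ww.pow m).mul ((Real.continuous_sqrt.comp continuous_ww).pow _)
  · intro p
    have := ww_pos p
    have := Real.sqrt_pos.2 this
    positivity

lemma WW_succ (m : ℕ) (p : ℝ × EuclideanSpace ℝ (Fin k)) :
    WW k (m + 1) p = (1 / ww p) ^ m * WW k 1 p := by
  have h1 := ww_pos p
  have h2 := Real.sqrt_pos.2 h1
  have e : ww p ^ (m + 1) * (1 / ww p) ^ m = ww p := by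
    rw [one_div, inv_pow, pow_succ, mul_comm (ww p ^ m), mul_assoc,
      mul_inv_cancel₀ (pow_pos h1 m).ne', mul_one]
  unfold WW
  rw [pow_one, mul_one_div, div_eq_div_iff (by positivity) (by positivity), one_mul]
  linear_combination (-(√(ww p) ^ (k + 1))) * e

lemma haarProd (k : ℕ) :
    (volume : Measure (ℝ × EuclideanSpace ℝ (Fin k))).IsAddHaarMeasure :=
  MeasureTheory.Measure.prod.instIsAddHaarMeasure _ _

lemma kap_eq (k m : ℕ) : kap k m = ∫ p, WW k m p := rfl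

lemma integrable_WW_one (k : ℕ) : Integrable (WW k 1) := by
  have := haarProd k
  have hr : (Module.finrank ℝ (ℝ × EuclideanSpace ℝ (Fin k)) : ℝ) < (k : ℝ) + 3 := by
    simp
    linarith
  have h := integrable_rpow_neg_one_add_norm_sq (E := ℝ × EuclideanSpace ℝ (Fin k))
    (μ := volume) hr
  refine h.mono' (continuous_WW 1).aestronglyMeasurable (Eventually.of_forall fun p => ?_)
  rw [Real.norm_of_nonneg (WW_pos 1 p).le]
  have h1 := ww_pos p
  have hsq : √(ww p) ^ 2 = ww p := Real.sq_sqrt h1.le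
  have e1 : WW k 1 p = (ww p) ^ (-((k : ℝ) + 3) / 2) := by
    unfold WW
    have : ww p ^ 1 * √(ww p) ^ (k + 1) = √(ww p) ^ (k + 3) := by
      rw [pow_one]
      nth_rewrite 1 [← hsq]
      rw [← pow_add]; congr 1; omega
    rw [this, Real.sqrt_eq_rpow, ← Real.rpow_natCast, ← Real.rpow_mul h1.le, neg_div,
      Real.rpow_neg h1.le, one_div]
    congr 2
    push_cast; ring
  rw [e1]
  have hn : ‖p‖ ^ 2 ≤ p.1 ^ 2 + ‖p.2‖ ^ 2 := by
    rw [Prod.norm_def]
    rcases le_total ‖p.1‖ ‖p.2‖ with h | h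
    · rw [max_eq_right h]; nlinarith [sq_nonneg p.1]
    · rw [max_eq_left h, Real.norm_eq_abs, sq_abs]; nlinarith [sq_nonneg ‖p.2‖]
  refine Real.rpow_le_rpow_of_nonpos (by positivity) ?_ ?_
  · unfold ww; linarith
  · have : (0 : ℝ) ≤ k := Nat.cast_nonneg k
    linarith

lemma WW_le_WW_one (m : ℕ) (hm : 1 ≤ m) (p : ℝ × EuclideanSpace ℝ (Fin k)) :
    WW k m p ≤ WW k 1 p := by
  obtain ⟨j, rfl⟩ : ∃ j, m = j + 1 := ⟨m - 1, by omega⟩
  rw [WW_succ]
  have h1 := one_le_ww p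
  have h2 := WW_pos 1 p
  have h3 : (1 / ww p) ^ j ≤ 1 := by
    apply pow_le_one₀
    · have := ww_pos p; positivity
    · rw [div_le_one (ww_pos p)]; exact h1
  nlinarith

lemma integrable_WW (k m : ℕ) (hm : 1 ≤ m) : Integrable (WW k m) := by
  refine (integrable_WW_one k).mono' (continuous_WW m).aestronglyMeasurable
    (Eventually.of_forall fun p => ?_)
  rw [Real.norm_of_nonneg (WW_pos m p).le]
  exact WW_le_WW_one m hm p

lemma kap_pos (k m : ℕ) (hm : 1 ≤ m) : 0 < kap k m := by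
  have := haarProd k
  rw [kap_eq, integral_pos_iff_support_of_nonneg (fun p => (WW_pos m p).le) (integrable_WW k m hm)]
  have : Function.support (WW k m) = univ := by
    ext p; simpa using (WW_pos m p).ne'
  rw [this]
  simp

/-- `s = √(z²t² + r² + z²|v|²)` -/
def ss (r z : ℝ) (p : ℝ × EuclideanSpace ℝ (Fin k)) : ℝ :=
  √(z ^ 2 * p.1 ^ 2 + (r ^ 2 + z ^ 2 * ‖p.2‖ ^ 2))

/-- `ρ = z t + s` -/
def rr (r z : ℝ) (p : ℝ × EuclideanSpace ℝ (Fin k)) : ℝ := z * p.1 + ss r z p

lemma ss_sq {r z : ℝ} (p : ℝ × EuclideanSpace ℝ (Fin k)) :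
    ss r z p ^ 2 = z ^ 2 * p.1 ^ 2 + (r ^ 2 + z ^ 2 * ‖p.2‖ ^ 2) := by
  unfold ss; rw [Real.sq_sqrt]; positivity

lemma ss_pos {r z : ℝ} (hr : 0 < r) (p : ℝ × EuclideanSpace ℝ (Fin k)) : 0 < ss r z p := by
  unfold ss; apply Real.sqrt_pos.2; positivity

lemma abs_lt_ss {r z : ℝ} (hr : 0 < r) (p : ℝ × EuclideanSpace ℝ (Fin k)) :
    |z * p.1| < ss r z p := by
  have h := ss_sq (r := r) (z := z) p
  have h2 := ss_pos (z := z) hr p
  refine abs_lt_of_sq_lt_sq ?_ h2.le
  have : 0 < r ^ 2 + z ^ 2 * ‖p.2‖ ^ 2 := by positivity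
  nlinarith

lemma rr_pos {r z : ℝ} (hr : 0 < r) (p : ℝ × EuclideanSpace ℝ (Fin k)) : 0 < rr r z p := by
  have := (abs_lt.1 (abs_lt_ss (z := z) hr p)).1
  unfold rr; linarith

lemma rr_lt {r z : ℝ} (hr : 0 < r) (p : ℝ × EuclideanSpace ℝ (Fin k)) :
    rr r z p < 2 * ss r z p := by
  have := (abs_lt.1 (abs_lt_ss (z := z) hr p)).2
  unfold rr; linarith

lemma rr_eq {r z : ℝ} (p : ℝ × EuclideanSpace ℝ (Fin k)) :
    r ^ 2 + z ^ 2 * ‖p.2‖ ^ 2 - rr r z p ^ 2 = - (2 * z * p.1 * rr r z p) := by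
  have h := ss_sq (r := r) (z := z) p
  unfold rr
  nlinarith

lemma DD_rr {r z : ℝ} (p : ℝ × EuclideanSpace ℝ (Fin k)) (hz : 0 < z) :
    DD k r z (rr r z p) (z • p.2) = (2 * rr r z p * z) ^ 2 * ww p := by
  have h := rr_eq (r := r) (z := z) p
  unfold DD ww
  rw [norm_smul, Real.norm_of_nonneg hz.le, mul_pow, h]
  ring

lemma KK_rr {r z : ℝ} (hr : 0 < r) (hz : 0 < z) (m : ℕ) (p : ℝ × EuclideanSpace ℝ (Fin k)) :
    KK k m r z (rr r z p) (z • p.2) = WW k m p / (2 * rr r z p * z) ^ (k + 1) := by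
  have h1 := rr_pos (z := z) hr p
  have h2 := ww_pos p
  have h3 := Real.sqrt_pos.2 h2
  unfold KK
  rw [DD_rr p hz, Real.sqrt_mul (by positivity), Real.sqrt_sq (by positivity)]
  have e : 4 * rr r z p ^ 2 * z ^ 2 / ((2 * rr r z p * z) ^ 2 * ww p) = 1 / ww p := by
    field_simp
    norm_num
  rw [e, mul_pow]
  unfold WW
  rw [one_div, inv_pow]
  field_simp

/-- The transformed amplitude. -/
def GG (a : ℝ → ℝ) (ψ : EuclideanSpace ℝ (Fin k) → ℝ) (r z : ℝ) (y : EuclideanSpace ℝ (Fin k))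
    (p : ℝ × EuclideanSpace ℝ (Fin k)) : ℝ :=
  a (rr r z p) * ψ (y - z • p.2) / (2 * rr r z p) ^ (k + 1) * (rr r z p / ss r z p)

lemma GG_WW {a : ℝ → ℝ} {ψ : EuclideanSpace ℝ (Fin k) → ℝ} {r z : ℝ}
    {y : EuclideanSpace ℝ (Fin k)} (hr : 0 < r) (hz : 0 < z) (m : ℕ)
    (p : ℝ × EuclideanSpace ℝ (Fin k)) :
    z ^ k * (z * (rr r z p / ss r z p) *
      (a (rr r z p) * ψ (y - z • p.2) * KK k m r z (rr r z p) (z • p.2))) =
    GG a ψ r z y p * WW k m p := by
  have h1 := rr_pos (z := z) hr p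
  have h2 := ss_pos (z := z) hr p
  rw [KK_rr hr hz]
  unfold GG
  rw [mul_pow (2 * rr r z p) z]
  field_simp
  ring

lemma continuous_ss {r z : ℝ} : Continuous (ss (k := k) r z) := by
  unfold ss; fun_prop

lemma continuous_rr {r z : ℝ} : Continuous (rr (k := k) r z) := by
  unfold rr; exact (by fun_prop : Continuous fun p : ℝ × EuclideanSpace ℝ (Fin k) => z * p.1).add
    continuous_ss

lemma continuous_GG {a : ℝ → ℝ} {ψ : EuclideanSpace ℝ (Fin k) → ℝ} {r z : ℝ}
    {y : EuclideanSpace ℝ (Fin k)} (hr : 0 < r) (ha : Continuous a)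
    (hψ : Continuous ψ) : Continuous (GG a ψ r z y) := by
  unfold GG
  refine Continuous.mul (Continuous.div ((ha.comp continuous_rr).mul (hψ.comp (by fun_prop)))
    ((continuous_const.mul continuous_rr).pow _) ?_) (continuous_rr.div continuous_ss ?_)
  · intro p; have := rr_pos (z := z) hr p; positivity
  · intro p; have := ss_pos (z := z) hr p; positivity

lemma abs_GG_le {a : ℝ → ℝ} {ψ : EuclideanSpace ℝ (Fin k) → ℝ} {ra rb A P : ℝ}
    (hra : 0 < ra) (ha : ∀ ρ, ρ ∉ Icc ra rb → a ρ = 0) (hA : ∀ ρ, |a ρ| ≤ A)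
    (hP : ∀ v, |ψ v| ≤ P) {r z : ℝ} {y : EuclideanSpace ℝ (Fin k)} (hr : 0 < r)
    (p : ℝ × EuclideanSpace ℝ (Fin k)) :
    |GG a ψ r z y p| ≤ 2 * (A * P / (2 * ra) ^ (k + 1)) := by
  have h1 := rr_pos (z := z) hr p
  have h2 := ss_pos (z := z) hr p
  have h3 := rr_lt (z := z) hr p
  have hA0 : 0 ≤ A := (abs_nonneg _).trans (hA 0)
  have hP0 : 0 ≤ P := (abs_nonneg _).trans (hP 0)
  unfold GG
  rw [abs_mul, mul_comm (2 : ℝ) (A * P / (2 * ra) ^ (k + 1))]
  have h4 : |rr r z p / ss r z p| ≤ 2 := by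
    rw [abs_of_pos (by positivity), div_le_iff₀ h2]; exact h3.le
  refine mul_le_mul ?_ h4 (abs_nonneg _) (by positivity)
  by_cases hm : rr r z p ∈ Icc ra rb
  · rw [abs_div, abs_mul, abs_of_pos (a := (2 * rr r z p) ^ (k + 1)) (by positivity)]
    refine div_le_div₀ (by positivity) (mul_le_mul (hA _) (hP _) (abs_nonneg _) hA0)
      (by positivity) ?_
    have := hm.1
    gcongr
  · rw [ha _ hm, zero_mul, zero_div, abs_zero]; positivity

/-! ### The change of variables -/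

lemma hasDerivAt_rr {r z : ℝ} (hr : 0 < r) (v : EuclideanSpace ℝ (Fin k)) (t : ℝ) :
    HasDerivAt (fun t => rr r z (t, v)) (z * (rr r z (t, v) / ss r z (t, v))) t := by
  have h2 := ss_pos (z := z) hr (t, v)
  have hq : HasDerivAt (fun t : ℝ => z ^ 2 * t ^ 2 + (r ^ 2 + z ^ 2 * ‖v‖ ^ 2))
      (z ^ 2 * (2 * t)) t := by
    have := ((hasDerivAt_pow 2 t).const_mul (z ^ 2)).add_const (r ^ 2 + z ^ 2 * ‖v‖ ^ 2)
    simpa using this
  have hs := hq.sqrt (by positivity)
  have hz : HasDerivAt (fun t : ℝ => z * t) z t := by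
    simpa using (hasDerivAt_id t).const_mul z
  have h := hz.add hs
  refine (h.congr_deriv ?_)
  change z + z ^ 2 * (2 * t) / (2 * ss r z (t, v)) = z * ((z * t + ss r z (t, v)) / ss r z (t, v))
  field_simp
  ring

lemma rr_left {r z : ℝ} (hr : 0 < r) (hz : 0 < z) (v : EuclideanSpace ℝ (Fin k)) (t : ℝ) :
    (rr r z (t, v) ^ 2 - (r ^ 2 + z ^ 2 * ‖v‖ ^ 2)) / (2 * z * rr r z (t, v)) = t := by
  have h1 := rr_pos (z := z) hr (t, v)
  have h := rr_eq (r := r) (z := z) (t, v)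
  rw [div_eq_iff (by positivity)]
  simp only at h
  linarith

lemma rr_image {r z : ℝ} (hr : 0 < r) (hz : 0 < z) (v : EuclideanSpace ℝ (Fin k)) :
    (fun t => rr r z (t, v)) '' univ = Ioi 0 := by
  rw [image_univ]
  ext ρ
  simp only [mem_range, mem_Ioi]
  constructor
  · rintro ⟨t, rfl⟩; exact rr_pos hr _
  · intro hρ
    refine ⟨(ρ ^ 2 - (r ^ 2 + z ^ 2 * ‖v‖ ^ 2)) / (2 * z * ρ), ?_⟩
    set c := r ^ 2 + z ^ 2 * ‖v‖ ^ 2 with hc
    have hc0 : 0 < c := by positivity
    have hs : ss r z ((ρ ^ 2 - c) / (2 * z * ρ), v) = (ρ ^ 2 + c) / (2 * ρ) := by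
      unfold ss
      rw [Real.sqrt_eq_iff_mul_self_eq (by positivity) (by positivity)]
      rw [← hc]
      simp only
      field_simp
      ring
    unfold rr
    rw [hs]
    simp only
    field_simp
    ring

lemma integral_rr {r z : ℝ} (hr : 0 < r) (hz : 0 < z) (v : EuclideanSpace ℝ (Fin k))
    (F : ℝ → ℝ) :
    ∫ ρ in Ioi (0 : ℝ), F ρ =
      ∫ t, z * (rr r z (t, v) / ss r z (t, v)) * F (rr r z (t, v)) := by
  have h := integral_image_eq_integral_abs_deriv_smul (s := univ)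
    (f := fun t => rr r z (t, v)) (f' := fun t => z * (rr r z (t, v) / ss r z (t, v)))
    MeasurableSet.univ (fun t _ => (hasDerivAt_rr hr v t).hasDerivWithinAt)
    (fun t _ t' _ htt => by
      simp only at htt
      rw [← rr_left hr hz v t, ← rr_left hr hz v t', htt]) F
  rw [rr_image hr hz v] at h
  rw [h, setIntegral_univ]
  refine integral_congr_ae (Eventually.of_forall fun t => ?_)
  have h1 := rr_pos (z := z) hr (t, v)
  have h2 := ss_pos (z := z) hr (t, v)
  simp only [smul_eq_mul]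
  rw [abs_of_pos (by positivity)]

/-! ### Fubini -/

lemma DD_pos {r z : ℝ} (hr : 0 < r) (hz : 0 < z) (ρ : ℝ) (v : EuclideanSpace ℝ (Fin k)) :
    0 < DD k r z ρ v := by
  unfold DD
  rcases eq_or_ne ρ 0 with rfl | h
  · have : 0 < r ^ 2 + ‖v‖ ^ 2 := by positivity
    have : 0 < (r ^ 2 + ‖v‖ ^ 2 - 0 ^ 2) ^ 2 := by
      rw [zero_pow two_ne_zero, sub_zero]; positivity
    positivity
  · positivity

lemma continuous_DD {r z : ℝ} :
    Continuous (fun p : ℝ × EuclideanSpace ℝ (Fin k) => DD k r z p.1 p.2) := by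
  unfold DD; fun_prop

lemma continuous_KK {m : ℕ} {r z : ℝ} (hr : 0 < r) (hz : 0 < z) :
    Continuous (fun p : ℝ × EuclideanSpace ℝ (Fin k) => KK k m r z p.1 p.2) := by
  unfold KK
  refine Continuous.div ((Continuous.div (by fun_prop) continuous_DD ?_).pow m)
    ((Real.continuous_sqrt.comp continuous_DD).pow _) ?_
  · intro p; exact (DD_pos hr hz _ _).ne'
  · intro p
    have := Real.sqrt_pos.2 (DD_pos (k := k) hr hz p.1 p.2)
    positivity

/-- The integrand is continuous with compact support. -/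
lemma integrable_F {a : ℝ → ℝ} {ψ : EuclideanSpace ℝ (Fin k) → ℝ} {ra rb : ℝ}
    (hac : Continuous a) (ha : ∀ ρ, ρ ∉ Icc ra rb → a ρ = 0)
    (hψ : Continuous ψ) (hψc : HasCompactSupport ψ) {m : ℕ} {r z : ℝ}
    (y : EuclideanSpace ℝ (Fin k)) (hr : 0 < r) (hz : 0 < z) :
    Integrable (fun p : ℝ × EuclideanSpace ℝ (Fin k) =>
      a p.1 * ψ (y - p.2) * KK k m r z p.1 p.2) := by
  have := haarProd k
  refine Continuous.integrable_of_hasCompactSupport ?_ ?_
  · exact (((hac.comp continuous_fst).mul (hψ.comp (by fun_prop))).mul (continuous_KK hr hz))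
  · have hK : IsCompact (Icc ra rb ×ˢ ((fun v => y - v) '' tsupport ψ)) :=
      isCompact_Icc.prod (hψc.isCompact.image (by fun_prop))
    refine HasCompactSupport.intro hK fun p hp => ?_
    rw [mem_prod, not_and_or] at hp
    rcases hp with hp | hp
    · rw [ha _ hp]; ring
    · have : ψ (y - p.2) = 0 := by
        by_contra hne
        exact hp ⟨y - p.2, subset_tsupport _ hne, by simp⟩
      rw [this]; ring

lemma integral_eq {a : ℝ → ℝ} {ψ : EuclideanSpace ℝ (Fin k) → ℝ} {ra rb : ℝ}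
    (hra : 0 < ra) (hac : Continuous a) (ha : ∀ ρ, ρ ∉ Icc ra rb → a ρ = 0)
    (hψ : Continuous ψ) (hψc : HasCompactSupport ψ) {m : ℕ} (hm : 1 ≤ m) {r z : ℝ}
    (y : EuclideanSpace ℝ (Fin k)) (hr : 0 < r) (hz : 0 < z) :
    ∫ ρ in Ioi (0 : ℝ), ∫ v, a ρ * ψ (y - v) * KK k m r z ρ v =
      ∫ p, GG a ψ r z y p * WW k m p := by
  have := haarProd k
  have hint := integrable_F hac ha hψ hψc (m := m) y hr hz
  have hint' : Integrable (fun p : ℝ × EuclideanSpace ℝ (Fin k) =>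
      a p.1 * ψ (y - p.2) * KK k m r z p.1 p.2) ((volume.restrict (Ioi (0 : ℝ))).prod volume) := by
    have e : (volume.restrict (Ioi (0 : ℝ))).prod (volume : Measure (EuclideanSpace ℝ (Fin k))) =
        (volume : Measure (ℝ × EuclideanSpace ℝ (Fin k))).restrict (Ioi 0 ×ˢ univ) := by
      rw [Measure.volume_eq_prod, ← Measure.prod_restrict, Measure.restrict_univ]
    rw [e]
    exact hint.restrict
  rw [integral_integral_swap (f := fun ρ v => a ρ * ψ (y - v) * KK k m r z ρ v) hint']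
  -- scaling in `v`
  set H : EuclideanSpace ℝ (Fin k) → ℝ := fun v =>
    ∫ ρ in Ioi (0 : ℝ), a ρ * ψ (y - v) * KK k m r z ρ v with hH
  have hsc : ∫ v, H v = z ^ k * ∫ v, H (z • v) := by
    rw [Measure.integral_comp_smul, smul_eq_mul, finrank_euclideanSpace, Fintype.card_fin,
      abs_of_pos (by positivity), ← mul_assoc, mul_inv_cancel₀ (by positivity), one_mul]
  rw [hsc, ← integral_const_mul]
  -- boundedness of the amplitude
  obtain ⟨A, hA⟩ : ∃ A, ∀ ρ, |a ρ| ≤ A := by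
    obtain ⟨A, hA⟩ := (isCompact_Icc (a := ra) (b := rb)).exists_bound_of_continuousOn
      hac.continuousOn
    refine ⟨max A 0, fun ρ => ?_⟩
    by_cases h : ρ ∈ Icc ra rb
    · exact (hA ρ h).trans (le_max_left _ _)
    · rw [ha _ h, abs_zero]; exact le_max_right _ _
  obtain ⟨P, hP⟩ : ∃ P, ∀ v, |ψ v| ≤ P := by
    obtain ⟨P, hP⟩ := hψc.exists_bound_of_continuous hψ
    exact ⟨P, hP⟩
  have hGW : Integrable (fun p => GG a ψ r z y p * WW k m p) := by
    refine Integrable.bdd_mul (c := 2 * (A * P / (2 * ra) ^ (k + 1))) (integrable_WW k m hm)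
      (continuous_GG hr hac hψ).aestronglyMeasurable (Eventually.of_forall fun p => ?_)
    exact abs_GG_le hra ha hA hP hr p
  rw [Measure.volume_eq_prod, integral_prod_symm _ (by rwa [← Measure.volume_eq_prod])]
  refine integral_congr_ae (Eventually.of_forall fun v => ?_)
  simp only [hH]
  rw [integral_rr hr hz v, ← integral_const_mul]
  refine integral_congr_ae (Eventually.of_forall fun t => ?_)
  exact GG_WW hr hz m (t, v)

/-! ### The approximate identity -/

lemma kap_lower (k : ℕ) {η : ℝ} (hη : 0 < η) :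
    ∃ c : ℝ, 0 < c ∧ ∀ j : ℕ, (1 / (1 + η)) ^ j * c ≤ kap k (j + 1) := by
  have := haarProd k
  set S : Set (ℝ × EuclideanSpace ℝ (Fin k)) := {p | ww p < 1 + η} with hS
  have hSo : IsOpen S := isOpen_lt continuous_ww continuous_const
  have h0 : (0 : ℝ × EuclideanSpace ℝ (Fin k)) ∈ S := by simp [hS, ww, hη]
  refine ⟨∫ p in S, WW k 1 p, ?_, fun j => ?_⟩
  · rw [setIntegral_pos_iff_support_of_nonneg_ae
      (Eventually.of_forall fun p => (WW_pos 1 p).le) (integrable_WW_one k).integrableOn]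
    have : Function.support (WW k 1) = univ := by
      ext p; simpa using (WW_pos 1 p).ne'
    rw [this, univ_inter]
    exact hSo.measure_pos _ ⟨0, h0⟩
  · rw [kap_eq, ← integral_const_mul]
    have h1 : ∫ p in S, WW k (j + 1) p ≤ ∫ p, WW k (j + 1) p :=
      setIntegral_le_integral (integrable_WW k (j + 1) (by omega))
        (Eventually.of_forall fun p => (WW_pos (j + 1) p).le)
    refine le_trans ?_ h1
    refine setIntegral_mono_on ((integrable_WW_one k).integrableOn.const_mul _)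
      (integrable_WW k (j + 1) (by omega)).integrableOn hSo.measurableSet fun p hp => ?_
    rw [WW_succ j p]
    have hp' : ww p < 1 + η := hp
    have h2 := ww_pos p
    have h3 := (WW_pos 1 p).le
    refine mul_le_mul_of_nonneg_right (pow_le_pow_left₀ (by positivity) ?_ j) h3
    exact one_div_le_one_div_of_le h2 hp'.le

lemma approx {k : ℕ} {G : ℝ × EuclideanSpace ℝ (Fin k) → ℝ} (hG : Continuous G) {B : ℝ}
    (hB : ∀ p, |G p| ≤ B) :
    Tendsto (fun m => (∫ p, G p * WW k m p) / kap k m) atTop (𝓝 (G 0)) := by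
  have := haarProd k
  have hB0 : 0 ≤ B := (abs_nonneg _).trans (hB 0)
  rw [← tendsto_add_atTop_iff_nat 1, Metric.tendsto_atTop]
  intro ε hε
  obtain ⟨δ, hδ, hGδ⟩ := Metric.continuousAt_iff.1 (hG.continuousAt (x := 0)) (ε / 2)
    (half_pos hε)
  obtain ⟨c, hc, hck⟩ := kap_lower k (η := δ ^ 2 / 2) (by positivity)
  set q : ℝ := 1 / (1 + δ ^ 2) with hq
  set q' : ℝ := 1 / (1 + δ ^ 2 / 2) with hq'
  have hq0 : 0 < q := by positivity
  have hq'0 : 0 < q' := by positivity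
  have hqq : q / q' < 1 := by
    rw [div_lt_one hq'0]
    exact one_div_lt_one_div_of_lt (by positivity) (by nlinarith [sq_pos_of_pos hδ])
  have hlim : Tendsto (fun j : ℕ => (2 * B * kap k 1 / c) * (q / q') ^ j) atTop (𝓝 0) := by
    have := (tendsto_pow_atTop_nhds_zero_of_lt_one (by positivity) hqq).const_mul
      (2 * B * kap k 1 / c)
    simpa using this
  obtain ⟨N, hN⟩ := (Metric.tendsto_atTop.1 hlim) (ε / 2) (half_pos hε)
  refine ⟨N, fun j hj => ?_⟩
  have hkap := kap_pos k (j + 1) (by omega)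
  have hintW := integrable_WW k (j + 1) (by omega)
  have hintG : Integrable (fun p => G p * WW k (j + 1) p) :=
    Integrable.bdd_mul (c := B) hintW hG.aestronglyMeasurable (Eventually.of_forall hB)
  have e1 : (∫ p, G p * WW k (j + 1) p) / kap k (j + 1) - G 0 =
      (∫ p, (G p - G 0) * WW k (j + 1) p) / kap k (j + 1) := by
    have : ∫ p, (G p - G 0) * WW k (j + 1) p =
        (∫ p, G p * WW k (j + 1) p) - G 0 * kap k (j + 1) := by
      rw [kap_eq, ← integral_const_mul, ← integral_sub hintG (hintW.const_mul _)]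
      refine integral_congr_ae (Eventually.of_forall fun p => ?_)
      simp only
      ring
    rw [this]
    field_simp
  rw [Real.dist_eq, e1, abs_div, abs_of_pos hkap, div_lt_iff₀ hkap]
  have hbd : |∫ p, (G p - G 0) * WW k (j + 1) p| ≤
      ∫ p, (ε / 2 * WW k (j + 1) p + 2 * B * q ^ j * WW k 1 p) := by
    rw [← Real.norm_eq_abs]
    refine norm_integral_le_of_norm_le
      ((hintW.const_mul _).add ((integrable_WW_one k).const_mul _))
      (Eventually.of_forall fun p => ?_)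
    have hw := WW_pos (j + 1) p
    have hw1 := WW_pos 1 p
    rw [norm_mul, Real.norm_eq_abs, Real.norm_of_nonneg hw.le]
    by_cases hp : ww p < 1 + δ ^ 2
    · have hn : ‖p‖ ^ 2 ≤ p.1 ^ 2 + ‖p.2‖ ^ 2 := by
        rw [Prod.norm_def]
        rcases le_total ‖p.1‖ ‖p.2‖ with h | h
        · rw [max_eq_right h]; nlinarith [sq_nonneg p.1]
        · rw [max_eq_left h, Real.norm_eq_abs, sq_abs]; nlinarith [sq_nonneg ‖p.2‖]
      have hpδ : ‖p‖ < δ := by
        refine lt_of_pow_lt_pow_left₀ 2 hδ.le ?_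
        unfold ww at hp
        linarith
      have h1 : |G p - G 0| < ε / 2 := by
        have := hGδ (x := p) (by simpa [dist_eq_norm] using hpδ)
        rwa [Real.dist_eq] at this
      have : 0 ≤ 2 * B * q ^ j * WW k 1 p := by positivity
      nlinarith
    · have h1 : |G p - G 0| ≤ 2 * B := by
        have h2 := hB p
        have h3 := hB 0
        calc |G p - G 0| ≤ |G p| + |G 0| := abs_sub _ _
          _ ≤ 2 * B := by linarith
      have h2 : (1 / ww p) ^ j ≤ q ^ j := by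
        refine pow_le_pow_left₀ (by have := ww_pos p; positivity) ?_ j
        exact one_div_le_one_div_of_le (by positivity) (not_lt.1 hp)
      have h3 : |G p - G 0| * WW k (j + 1) p ≤ 2 * B * q ^ j * WW k 1 p := by
        rw [WW_succ, mul_assoc (2 * B)]
        refine mul_le_mul h1 (mul_le_mul_of_nonneg_right h2 hw1.le) ?_ (by positivity)
        have := ww_pos p
        positivity
      have : 0 ≤ ε / 2 * WW k (j + 1) p := by positivity
      linarith
  refine lt_of_le_of_lt hbd ?_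
  rw [integral_add (hintW.const_mul _) ((integrable_WW_one k).const_mul _), integral_const_mul,
    integral_const_mul, ← kap_eq, ← kap_eq]
  have h4 := hN j hj
  rw [Real.dist_eq, sub_zero, abs_of_nonneg (by
    have := (kap_pos k 1 le_rfl).le
    positivity)] at h4
  have h5 := hck j
  have h6 : 2 * B * q ^ j * kap k 1 < ε / 2 * kap k (j + 1) := by
    have : 2 * B * q ^ j * kap k 1 = (2 * B * kap k 1 / c * (q / q') ^ j) * (q' ^ j * c) := by
      have h8 : (q / q') ^ j * q' ^ j = q ^ j := by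
        rw [← mul_pow, div_mul_cancel₀ _ hq'0.ne']
      calc 2 * B * q ^ j * kap k 1 = 2 * B * kap k 1 / c * ((q / q') ^ j * q' ^ j) * c := by
            rw [h8]; field_simp
        _ = _ := by ring
    rw [this]
    have h7 : 0 < q' ^ j * c := by positivity
    calc (2 * B * kap k 1 / c * (q / q') ^ j) * (q' ^ j * c) < ε / 2 * (q' ^ j * c) :=
          mul_lt_mul_of_pos_right h4 h7
      _ ≤ ε / 2 * kap k (j + 1) := by gcongr
  linarith

/-- `θ^m = o(κ_m)` for `0 ≤ θ < 1`. -/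
theorem tendsto_pow_div_kap (k : ℕ) {θ : ℝ} (h0 : 0 ≤ θ) (h1 : θ < 1) :
    Tendsto (fun m => θ ^ m / kap k m) atTop (𝓝 0) := by
  obtain ⟨θ', h2, h3⟩ := exists_between h1
  have hθ' : 0 < θ' := h0.trans_lt h2
  obtain ⟨c, hc, hck⟩ := kap_lower k (η := 1 / θ' - 1) (by
    rw [sub_pos]; exact (one_lt_div hθ').2 h3)
  have e : (1 : ℝ) / (1 + (1 / θ' - 1)) = θ' := by field_simp; ring
  rw [e] at hck
  rw [← tendsto_add_atTop_iff_nat 1]
  have hlim : Tendsto (fun j : ℕ => (θ / c) * (θ / θ') ^ j) atTop (𝓝 0) := by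
    have := (tendsto_pow_atTop_nhds_zero_of_lt_one (r := θ / θ') (by positivity)
      ((div_lt_one hθ').2 h2)).const_mul (θ / c)
    simpa using this
  refine squeeze_zero (fun j => ?_) (fun j => ?_) hlim
  · have := kap_pos k (j + 1) (by omega)
    positivity
  · have h4 := kap_pos k (j + 1) (by omega)
    have h5 : 0 < θ' ^ j * c := by positivity
    calc θ ^ (j + 1) / kap k (j + 1) ≤ θ ^ (j + 1) / (θ' ^ j * c) := by
          gcongr
          exact hck j
      _ = θ / c * (θ / θ') ^ j := by rw [div_pow, pow_succ]; field_simp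

/-- Joint integrability on `(0,∞) × ℝᵏ`. -/
theorem integrable_prod_F {k : ℕ} {a : ℝ → ℝ} {ψ : EuclideanSpace ℝ (Fin k) → ℝ} {ra rb : ℝ}
    (hac : Continuous a) (ha : ∀ ρ, ρ ∉ Icc ra rb → a ρ = 0)
    (hψ : Continuous ψ) (hψc : HasCompactSupport ψ) {m : ℕ} {r z : ℝ}
    (y : EuclideanSpace ℝ (Fin k)) (hr : 0 < r) (hz : 0 < z) :
    Integrable (fun p : ℝ × EuclideanSpace ℝ (Fin k) =>
      a p.1 * ψ (y - p.2) * KK k m r z p.1 p.2) ((volume.restrict (Ioi (0 : ℝ))).prod volume) := by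
  have hint := integrable_F hac ha hψ hψc (m := m) y hr hz
  have e : (volume.restrict (Ioi (0 : ℝ))).prod (volume : Measure (EuclideanSpace ℝ (Fin k))) =
      (volume : Measure (ℝ × EuclideanSpace ℝ (Fin k))).restrict (Ioi 0 ×ˢ univ) := by
    rw [Measure.volume_eq_prod, ← Measure.prod_restrict, Measure.restrict_univ]
  rw [e]
  exact hint.restrict

/-- The integral of the absolute values is bounded by `B κ_m` as well. -/
theorem integral_abs_le {k : ℕ} {a : ℝ → ℝ} {ψ : EuclideanSpace ℝ (Fin k) → ℝ} {ra rb : ℝ}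
    (hac : Continuous a) (hra : 0 < ra) (ha : ∀ ρ, ρ ∉ Icc ra rb → a ρ = 0)
    (hψ : Continuous ψ) (hψc : HasCompactSupport ψ) :
    ∃ B : ℝ, 0 ≤ B ∧ ∀ (r z : ℝ) (y : EuclideanSpace ℝ (Fin k)) (m : ℕ), 0 < r → 0 < z → 1 ≤ m →
      ∫ p : ℝ × EuclideanSpace ℝ (Fin k), |a p.1 * ψ (y - p.2) * KK k m r z p.1 p.2|
        ∂((volume.restrict (Ioi (0 : ℝ))).prod volume) ≤ B * kap k m := by
  obtain ⟨A, hA⟩ : ∃ A, ∀ ρ, |a ρ| ≤ A := by
    obtain ⟨A, hA⟩ := (isCompact_Icc (a := ra) (b := rb)).exists_bound_of_continuousOn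
      hac.continuousOn
    refine ⟨max A 0, fun ρ => ?_⟩
    by_cases h : ρ ∈ Icc ra rb
    · exact (hA ρ h).trans (le_max_left _ _)
    · rw [ha _ h, abs_zero]; exact le_max_right _ _
  obtain ⟨P, hP⟩ : ∃ P, ∀ v, |ψ v| ≤ P := by
    obtain ⟨P, hP⟩ := hψc.exists_bound_of_continuous hψ
    exact ⟨P, hP⟩
  have hA0 : 0 ≤ A := (abs_nonneg _).trans (hA 0)
  have hP0 : 0 ≤ P := (abs_nonneg _).trans (hP 0)
  refine ⟨2 * (A * P / (2 * ra) ^ (k + 1)), by positivity, fun r z y m hr hz hm => ?_⟩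
  have ha' : ∀ ρ, ρ ∉ Icc ra rb → |a ρ| = 0 := fun ρ hρ => by rw [ha ρ hρ, abs_zero]
  have hψc' : HasCompactSupport (fun v => |ψ v|) := hψc.comp_left (g := fun t : ℝ => |t|) abs_zero
  have hint := integrable_prod_F hac.abs ha' hψ.abs hψc' (m := m) y hr hz
  have e : ∀ p : ℝ × EuclideanSpace ℝ (Fin k), |a p.1 * ψ (y - p.2) * KK k m r z p.1 p.2| =
      |a p.1| * |ψ (y - p.2)| * KK k m r z p.1 p.2 := by
    intro p
    rw [abs_mul, abs_mul, abs_of_nonneg (a := KK k m r z p.1 p.2)]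
    unfold KK
    have := DD_pos (k := k) hr hz p.1 p.2
    positivity
  simp_rw [e]
  rw [integral_prod _ hint, integral_eq hra hac.abs ha' hψ.abs hψc' hm y hr hz, kap_eq,
    ← integral_const_mul]
  refine (le_abs_self _).trans ?_
  rw [← Real.norm_eq_abs]
  refine norm_integral_le_of_norm_le ((integrable_WW k m hm).const_mul _)
    (Eventually.of_forall fun p => ?_)
  have hw := WW_pos m p
  rw [norm_mul, Real.norm_eq_abs, Real.norm_of_nonneg hw.le]
  refine mul_le_mul_of_nonneg_right (abs_GG_le hra ha' (fun ρ => ?_) (fun v => ?_) hr p) hw.le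
  · rw [abs_abs]; exact hA ρ
  · rw [abs_abs]; exact hP v

/-! ### The statement -/

/-- Module S-LAP of `helper31` (`LAP_statement` with the bounds for `m ≥ 1`; the integral defining
`kap k 0` diverges). -/
def LAP_statement' : Prop :=
  ∀ (k : ℕ) (a : ℝ → ℝ) (ψ : EuclideanSpace ℝ (Fin k) → ℝ) (ra rb : ℝ), Continuous a →
    0 < ra → (∀ ρ, ρ ∉ Icc ra rb → a ρ = 0) → Continuous ψ → HasCompactSupport ψ →
    (∀ m, 1 ≤ m → 0 < kap k m) ∧
    ∃ B : ℝ, ∀ (r z : ℝ) (y : EuclideanSpace ℝ (Fin k)), 0 < r → 0 < z →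
      (∀ m, 1 ≤ m →
        |∫ ρ in Ioi (0 : ℝ), ∫ v, a ρ * ψ (y - v) * KK k m r z ρ v| ≤ B * kap k m) ∧
      Tendsto (fun m => (∫ ρ in Ioi (0 : ℝ), ∫ v, a ρ * ψ (y - v) * KK k m r z ρ v) / kap k m)
        atTop (𝓝 (a r * ψ y / (2 * r) ^ (k + 1)))

theorem lap' : LAP_statement' := by
  intro k a ψ ra rb hac hra ha hψ hψc
  refine ⟨fun m hm => kap_pos k m hm, ?_⟩
  obtain ⟨A, hA⟩ : ∃ A, ∀ ρ, |a ρ| ≤ A := by
    obtain ⟨A, hA⟩ := (isCompact_Icc (a := ra) (b := rb)).exists_bound_of_continuousOn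
      hac.continuousOn
    refine ⟨max A 0, fun ρ => ?_⟩
    by_cases h : ρ ∈ Icc ra rb
    · exact (hA ρ h).trans (le_max_left _ _)
    · rw [ha _ h, abs_zero]; exact le_max_right _ _
  obtain ⟨P, hP⟩ : ∃ P, ∀ v, |ψ v| ≤ P := by
    obtain ⟨P, hP⟩ := hψc.exists_bound_of_continuous hψ
    exact ⟨P, hP⟩
  refine ⟨2 * (A * P / (2 * ra) ^ (k + 1)), fun r z y hr hz => ⟨fun m hm => ?_, ?_⟩⟩
  · rw [integral_eq hra hac ha hψ hψc hm y hr hz, kap_eq, ← integral_const_mul,
      ← Real.norm_eq_abs]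
    refine norm_integral_le_of_norm_le ((integrable_WW k m hm).const_mul _)
      (Eventually.of_forall fun p => ?_)
    have hw := WW_pos m p
    rw [norm_mul, Real.norm_eq_abs, Real.norm_of_nonneg hw.le]
    exact mul_le_mul_of_nonneg_right (abs_GG_le hra ha hA hP hr p) hw.le
  · have h := approx (continuous_GG (y := y) (z := z) hr hac hψ)
      (abs_GG_le (z := z) (y := y) hra ha hA hP hr)
    have e : GG a ψ r z y 0 = a r * ψ y / (2 * r) ^ (k + 1) := by
      have hs : ss r z (0 : ℝ × EuclideanSpace ℝ (Fin k)) = r := by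
        unfold ss
        simp [Real.sqrt_sq hr.le]
      have hr' : rr r z (0 : ℝ × EuclideanSpace ℝ (Fin k)) = r := by
        unfold rr; rw [hs]; simp
      unfold GG
      rw [hr', hs, div_self hr.ne', mul_one]
      simp
    rw [e] at h
    refine h.congr' ?_
    filter_upwards [eventually_ge_atTop 1] with m hm
    rw [integral_eq hra hac ha hψ hψc hm y hr hz]

end Vale.Agent.P088.R2.H605
end
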