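import Vale.Agent.P088.R2.H884.Kid

/-!
# P088, THEOREM S, core: block GEO, second half (everything except `far`, `bS`, `bE`)
-/

open MeasureTheory Set Filter Topology Metric
open scoped ContDiff

noncomputable section

namespace Vale.Agent.P088.R2.H605

open Vale.Agent.P088.R2.H31 Vale.Agent.P088.R2.H884

variable {k : ℕ}

theorem zz_le (y : E (k + 3)) : zz y ≤ ‖y‖ := by
  have h1 := norm_sq_split' y
  have h2 := zz_nonneg y
  have h3 := norm_nonneg y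
  refine le_of_sq_le_sq ?_ h3 
  nlinarith [sq_nonneg (ay y), sq_nonneg ‖pP y‖]

theorem norm_pL_le (y : E (k + 3)) : ‖pL y‖ ≤ ‖y‖ := by
  have h1 := norm_sq_split y
  refine le_of_sq_le_sq ?_ (norm_nonneg y)
  nlinarith [sq_nonneg ‖pP y‖]

theorem pL_add (x y : E (k + 3)) : pL (x + y) = pL x + pL y := by
  ext i
  simp [pL]

theorem pL_sub (x y : E (k + 3)) : pL (x - y) = pL x - pL y := by
  ext i
  simp [pL]

theorem pP_sub (x y : E (k + 3)) : pP (x - y) = pP x - pP y := by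
  ext i
  simp [pP]

theorem pP_smul_ev1 (r : ℝ) : pP (r • ev 1 : E (k + 3)) = 0 := by
  ext i
  have h : (⟨i.1 + 3, by omega⟩ : Fin (k + 3)) ≠ 1 := fun h => by
    have := congrArg Fin.val h
    simp at this
  simp [pP, h]

theorem norm_ev1 : ‖(ev 1 : E (k + 3))‖ = 1 := by
  simp [ev]

theorem ay_ev1 : ay (ev 1 : E (k + 3)) = -(12 / 13) := by
  simp [ay, ne01]

theorem ay_smul (t : ℝ) (y : E (k + 3)) : ay (t • y) = t * ay y := by
  simp [ay]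
  ring

/-- numbers of a configuration -/
structure Num (R r ρ₀ η η₁ : ℝ) : Prop where
  R0 : 0 < R
  r0 : 0 < r
  h0 : 0 < ρ₀
  hr : 1000 * ρ₀ ≤ r
  hR : 1000 * ρ₀ ≤ R
  hη : η = ρ₀ / 2000
  hη₁ : η₁ = η / 8

theorem num_ex {R r : ℝ} (hR : 0 < R) (hr : 0 < r) :
    Num R r (min r R / 1000) (min r R / 1000 / 2000) (min r R / 1000 / 2000 / 8) := by
  have h : 0 < min r R := lt_min hr hR
  refine ⟨hR, hr, by positivity, ?_, ?_, rfl, rfl⟩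
  · have := min_le_left r R
    linarith
  · have := min_le_right r R
    linarith

section

variable {R r ρ₀ η η₁ ρ : ℝ} {c : E (k + 3)} {G : Set (E (k + 3))}

theorem norm_c (hc : c ∈ ball (ρ₀ • ev 1 : E (k + 3)) η₁) : ‖c - ρ₀ • ev 1‖ < η₁ := by
  rwa [mem_ball, dist_eq_norm] at hc

theorem norm_c_le (N : Num R r ρ₀ η η₁) (hc : c ∈ ball (ρ₀ • ev 1 : E (k + 3)) η₁) :
    ‖c‖ ≤ ρ₀ + η₁ := by
  have h1 := norm_c hc
  have h2 : ‖(ρ₀ • ev 1 : E (k + 3))‖ = ρ₀ := by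
    rw [norm_smul, norm_ev1, mul_one, Real.norm_eq_abs, abs_of_pos N.h0]
  have h3 : c = (c - ρ₀ • ev 1) + ρ₀ • ev 1 := by abel
  calc ‖c‖ = ‖(c - ρ₀ • ev 1) + ρ₀ • ev 1‖ := by rw [← h3]
    _ ≤ ‖c - ρ₀ • ev 1‖ + ‖(ρ₀ • ev 1 : E (k + 3))‖ := norm_add_le _ _
    _ ≤ ρ₀ + η₁ := by rw [h2]; linarith

theorem norm_p_le (N : Num R r ρ₀ η η₁) (hc : c ∈ ball (ρ₀ • ev 1 : E (k + 3)) η₁)
    (hρ : ρ ∈ Ioo (ρ₀ - η) (ρ₀ + η)) : ‖c - ρ • av k‖ ≤ 3 * ρ₀ ∧ ‖c + ρ • av k‖ ≤ 3 * ρ₀ := by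
  have h1 := norm_c_le N hc
  have h2 := N.hη
  have h3 := N.hη₁
  have h4 := N.h0
  obtain ⟨h5, h6⟩ := hρ
  have h7 : ‖ρ • av k‖ = ρ := by
    rw [norm_smul, norm_av, mul_one, Real.norm_eq_abs, abs_of_pos (by linarith)]
  constructor
  · refine (norm_sub_le _ _).trans ?_
    rw [h7]
    linarith
  · refine (norm_add_le _ _).trans ?_
    rw [h7]
    linarith

/-- distance from `r ν` to the poles -/
theorem near (s : ℝ) (hs : s = 1 ∨ s = -1) (N : Num R r ρ₀ η η₁)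
    (hc : c ∈ ball (ρ₀ • ev 1 : E (k + 3)) η₁) (hρ : ρ ∈ Ioo (ρ₀ - η) (ρ₀ + η)) :
    ‖(c + (s * ρ) • av k) - r • ev 1‖ ≤ ‖((ρ₀ - r) • ev 1 : E (k + 3)) + (s * ρ₀) • av k‖ +
      (η + η₁) ∧
    ‖((ρ₀ - r) • ev 1 : E (k + 3)) + (s * ρ₀) • av k‖ ^ 2 =
      (r - ρ₀) ^ 2 + 24 / 13 * s * ρ₀ * (r - ρ₀) + ρ₀ ^ 2 := by
  have h1 := norm_c hc
  have hs2 : s ^ 2 = 1 := by
    rcases hs with h | h <;> rw [h] <;> norm_num
  have hsa : |s| = 1 := by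
    rcases hs with h | h <;> rw [h] <;> norm_num
  constructor
  · have e : (c + (s * ρ) • av k) - r • ev 1 =
        (((ρ₀ - r) • ev 1 : E (k + 3)) + (s * ρ₀) • av k) +
          ((c - ρ₀ • ev 1) + (s * (ρ - ρ₀)) • av k) := by
      module
    rw [e]
    refine (norm_add_le _ _).trans ?_
    have h2 : ‖(s * (ρ - ρ₀)) • av k‖ ≤ η := by
      rw [norm_smul, norm_av, mul_one, Real.norm_eq_abs, abs_mul, hsa, one_mul, abs_le]
      obtain ⟨h5, h6⟩ := hρ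
      constructor <;> linarith
    have h3 := norm_add_le (c - ρ₀ • ev 1) ((s * (ρ - ρ₀)) • av k)
    linarith
  · rw [norm_add_av, ay_smul, ay_ev1, norm_smul, norm_ev1, mul_one, Real.norm_eq_abs, sq_abs]
    linear_combination ρ₀ ^ 2 * hs2

theorem mem_G (s : ℝ) (hs : s = 1 ∨ s = -1) (N : Num R r ρ₀ η η₁)
    (hG : ball (r • ev 1) r ∩ ball 0 R ⊆ G)
    (hc : c ∈ ball (ρ₀ • ev 1 : E (k + 3)) η₁) (hρ : ρ ∈ Ioo (ρ₀ - η) (ρ₀ + η)) :
    c + (s * ρ) • av k ∈ G := by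
  obtain ⟨h1, h2⟩ := near s hs N hc hρ
  obtain ⟨h3, h4⟩ := norm_p_le N hc hρ
  have hR := N.hR
  have hr := N.hr
  have h0 := N.h0
  have hη := N.hη
  have hη₁ := N.hη₁
  refine hG ⟨?_, ?_⟩
  · rw [mem_ball, dist_eq_norm]
    have h5 : ‖((ρ₀ - r) • ev 1 : E (k + 3)) + (s * ρ₀) • av k‖ ≤ r - ρ₀ / 20 := by
      refine le_of_sq_le_sq ?_ (by linarith)
      rw [h2]
      have : s ≤ 1 := by rcases hs with h | h <;> rw [h]; norm_num
      have h7 : 24 / 13 * s * ρ₀ * (r - ρ₀) ≤ 24 / 13 * ρ₀ * (r - ρ₀) := by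
        have : 0 ≤ ρ₀ * (r - ρ₀) := mul_nonneg h0.le (by linarith)
        nlinarith
      nlinarith
    linarith
  · rw [mem_ball, dist_zero_right]
    rcases hs with h | h
    · rw [h, one_mul]
      linarith
    · rw [h, neg_one_mul, neg_smul, ← sub_eq_add_neg]
      linarith

/-- The first half (`far`, `bS`, `bE`). -/
def Half (k : ℕ) (R r ρ₀ η η₁ : ℝ) : Prop :=
  ∀ c ∈ ball (ρ₀ • ev 1 : E (k + 3)) η₁, ∀ ρ ∈ Ioo (ρ₀ - η) (ρ₀ + η),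
    ∀ x : E (k + 3), r ≤ ‖x - r • ev 1‖ →
      ρ₀ / 20 ≤ ‖x - (c - ρ • av k)‖ ∧ ρ₀ / 20 ≤ ‖x - (c + ρ • av k)‖ ∧
      zz (x - (c - ρ • av k)) ≤ 0.361 / ρ₀ * nsq (c - ρ • av k) x ∧
      ‖x - (c - ρ • av k)‖ ≤ 28 * ‖x - (c + ρ • av k)‖

theorem cfg_of_half (N : Num R r ρ₀ η η₁) (H : Half k R r ρ₀ η η₁)
    (hG : ball (r • ev 1) r ∩ ball 0 R ⊆ G)
    (hc : c ∈ ball (ρ₀ • ev 1 : E (k + 3)) η₁) (hρ : ρ ∈ Ioo (ρ₀ - η) (ρ₀ + η)) :
    Cfg k G R (ρ₀ / 20) (0.361 / ρ₀) 28 1.02 (8 / R) (3 / 4) (ρ₀ / 2) (2 * ρ₀) ρ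
      (c - ρ • av k) (c + ρ • av k) := by
  have hR := N.hR
  have hr := N.hr
  have h0 := N.h0
  have hη := N.hη
  have hη₁ := N.hη₁
  have hR0 := N.R0
  obtain ⟨hp, hq⟩ := norm_p_le N hc hρ
  have hρ' := hρ
  obtain ⟨h5, h6⟩ := hρ
  have hρ0 : 0 < ρ := by linarith
  have out : ∀ x ∈ ball (0 : E (k + 3)) R \ G, r ≤ ‖x - r • ev 1‖ := by
    rintro x ⟨hx1, hx2⟩
    by_contra hx3
    push Not at hx3
    exact hx2 (hG ⟨by rwa [mem_ball, dist_eq_norm], hx1⟩)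
  have hxp : ∀ x : E (k + 3), R / 4 ≤ ‖x‖ →
      R / 8 ≤ ‖x - (c - ρ • av k)‖ ∧ R / 8 ≤ ‖x - (c + ρ • av k)‖ := by
    intro x hx
    have e1 := norm_sub_norm_le x (c - ρ • av k)
    have e2 := norm_sub_norm_le x (c + ρ • av k)
    constructor <;> linarith
  have htau : ∀ x p : E (k + 3), R / 8 ≤ ‖x - p‖ → zz (x - p) ≤ 8 / R * nsq p x := by
    intro x p h
    have h1 := zz_le (x - p)
    have h2 : 0 ≤ ‖x - p‖ := norm_nonneg _
    unfold nsq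
    have h3 : 1 ≤ 8 / R * ‖x - p‖ := by
      rw [div_mul_eq_mul_div, le_div_iff₀ hR0]
      linarith
    nlinarith
  refine ⟨by linarith, by linarith, ?_, ?_, by linarith, by linarith, ?_, ?_, ?_, ?_, ?_, ?_, ?_,
    ?_, ?_, ?_, ?_⟩
  · have := mem_G (-1) (Or.inr rfl) N hG hc hρ'
    rwa [neg_one_mul, neg_smul, ← sub_eq_add_neg] at this
  · have := mem_G 1 (Or.inl rfl) N hG hc hρ'
    rwa [one_mul] at this
  · unfold nsq
    have e : (c + ρ • av k) - (c - ρ • av k) = (2 * ρ) • av k := by module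
    rw [e, norm_smul, norm_av, mul_one, Real.norm_eq_abs, sq_abs]
    ring
  · intro x
    rw [sub_p, sub_q, zl_add_av, zl_sub_av]
  · intro x hx
    obtain ⟨a1, a2, -, -⟩ := H c hc ρ hρ' x (out x hx)
    exact ⟨a1, a2⟩
  · intro x hx
    exact (H c hc ρ hρ' x (out x hx)).2.2.1
  · intro x hx
    exact (H c hc ρ hρ' x (out x hx)).2.2.2
  · intro x hx1 hx2
    obtain ⟨a1, a2⟩ := hxp x hx1
    have e : x - (c - ρ • av k) = (x - (c + ρ • av k)) + (2 * ρ) • av k := by module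
    have h7 : ‖x - (c - ρ • av k)‖ ≤ ‖x - (c + ρ • av k)‖ + 2 * ρ := by
      rw [e]
      refine (norm_add_le _ _).trans ?_
      rw [norm_smul, norm_av, mul_one, Real.norm_eq_abs, abs_of_pos (by linarith)]
    linarith
  · intro x hx
    obtain ⟨a1, a2⟩ := hxp x hx
    exact ⟨htau x _ a1, htau x _ a2, by linarith, by linarith⟩
  · intro x
    have h7 := DD_eq' c x ρ
    rw [sub_p c x ρ, zz_add_av]
    rw [sub_p c x ρ] at h7
    refine le_of_sq_le_sq ?_ (by positivity)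
    rw [← h7]
    unfold DD
    nlinarith [sq_nonneg (‖pL (x - c)‖ ^ 2 + ‖pP (x - c)‖ ^ 2 - ρ ^ 2),
      mul_nonneg (sq_nonneg ρ) (sq_nonneg ‖pP (x - c)‖)]
  · rw [show (2 : ℝ) * ρ * 1.02 * (0.361 / ρ₀) = 2 * ρ * 1.02 * 0.361 / ρ₀ by ring,
      div_le_iff₀ h0]
    linarith
  · rw [show (2 : ℝ) * ρ * 28 * (8 / R) = 2 * ρ * 28 * 8 / R by ring, div_le_iff₀ hR0]
    linarith
  · rw [show (2 * ρ) ^ 2 * (8 / R) * (0.361 / ρ₀) = (2 * ρ) ^ 2 * 8 * 0.361 / (R * ρ₀) by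
      field_simp, div_le_iff₀ (by positivity)]
    have h7 : ρ ^ 2 ≤ (2 * ρ₀) ^ 2 := pow_le_pow_left₀ hρ0.le (by linarith) 2
    nlinarith

theorem last (N : Num R r ρ₀ η η₁) (hc : c ∈ ball (ρ₀ • ev 1 : E (k + 3)) η₁) (x : E (k + 3))
    (hx : ‖pP x‖ < η₁) (hx2 : ‖pL (x - c)‖ ≤ ρ₀ - η / 2) :
    x ∈ ball (r • ev 1 : E (k + 3)) r := by
  have hR := N.hR
  have hr := N.hr
  have h0 := N.h0
  have hη := N.hη
  have hη₁ := N.hη₁
  rw [mem_ball, dist_eq_norm]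
  have h1 := norm_c hc
  have h2 := norm_sq_split (x - r • ev 1)
  rw [pP_sub, pP_smul_ev1, sub_zero] at h2
  have h3 : ‖pL (x - r • ev 1)‖ ≤ r - 3 * η / 8 := by
    have e : x - r • ev 1 = (x - c) + ((c - ρ₀ • ev 1) + ((ρ₀ - r) • ev 1 : E (k + 3))) := by
      module
    rw [e, pL_add]
    refine (norm_add_le _ _).trans ?_
    have h4 := norm_pL_le ((c - ρ₀ • ev 1) + ((ρ₀ - r) • ev 1 : E (k + 3)))
    have h5 := norm_add_le (c - ρ₀ • ev 1) ((ρ₀ - r) • ev 1 : E (k + 3))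
    rw [norm_smul, norm_ev1, mul_one, Real.norm_eq_abs, abs_of_neg (by linarith)] at h5
    linarith
  refine lt_of_pow_lt_pow_left₀ 2 N.r0.le ?_
  rw [h2]
  have h6 : ‖pL (x - r • ev 1)‖ ^ 2 ≤ (r - 3 * η / 8) ^ 2 :=
    pow_le_pow_left₀ (norm_nonneg _) h3 2
  have h7 : ‖pP x‖ ^ 2 ≤ η₁ ^ 2 := pow_le_pow_left₀ (norm_nonneg _) hx.le 2
  have h8 : 0 < η := by rw [hη]; positivity
  have h9 : η ≤ r := by linarith
  rw [hη₁] at h7
  nlinarith [mul_pos h8 N.r0, mul_le_mul_of_nonneg_left h9 h8.le]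

theorem geo_of_half (H : ∀ (k : ℕ) (R r ρ₀ η η₁ : ℝ), Num R r ρ₀ η η₁ → Half k R r ρ₀ η η₁) :
    GEO_statement := by
  intro k R r G hR hr hG
  have N := num_ex hR hr
  generalize min r R / 1000 = ρ₀ at N
  have h0 := N.h0
  refine ⟨ρ₀, ρ₀ / 2000, ρ₀ / 2000 / 8, ρ₀ / 20, 0.361 / ρ₀, 28, 1.02, 8 / R, 3 / 4, ρ₀ / 2,
    2 * ρ₀, by positivity, by linarith, by positivity, by positivity, by positivity, by norm_num,
    by norm_num, by positivity, ?_, by norm_num, by norm_num, by positivity, ?_, ?_⟩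
  · have := N.hR
    rw [div_le_div_iff₀ hR h0]
    linarith
  · intro c hc ρ hρ
    exact cfg_of_half N (H _ _ _ _ _ _ N) hG hc hρ
  · intro c hc x hx hx2
    exact last N hc x hx hx2

end

end Vale.Agent.P088.R2.H605
end
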